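import Mathlib

/-!
Separable entire solutions of the affine maximal equation are quadratic, in every dimension.
-/

open Finset

namespace Vale.Agent.Results.P252.SeparableRigidity

noncomputable section

/-- The partial derivative of `φ` in the coordinate `i` at the point `x`. -/
def pd {n : ℕ} (i : Fin n) (φ : (Fin n → ℝ) → ℝ) (x : Fin n → ℝ) : ℝ :=
  deriv (fun t => φ (Function.update x i t)) (x i)

/-- The Hessian matrix of `u` at `x`, entrywise by iterated partial derivatives. -/
def hess {n : ℕ} (u : (Fin n → ℝ) → ℝ) (x : Fin n → ℝ) : Matrix (Fin n) (Fin n) ℝ :=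
  Matrix.of fun i j => pd i (pd j u) x

/-- The function `w = (det D²u)^(-(n+1)/(n+2))`. -/
def wfun {n : ℕ} (u : (Fin n → ℝ) → ℝ) (x : Fin n → ℝ) : ℝ :=
  (hess u x).det ^ (-(((n : ℝ) + 1) / ((n : ℝ) + 2)))

/-- The affine maximal equation `∑ U^{ij} ∂_{ij} w = 0` at `x`,
where `U = det(D²u) (D²u)⁻¹` is the adjugate of the Hessian. -/
def AffineMaximalAt {n : ℕ} (u : (Fin n → ℝ) → ℝ) (x : Fin n → ℝ) : Prop :=
  ∑ i, ∑ j, (hess u x).adjugate i j * pd i (pd j (wfun u)) x = 0

/-- A positive function on the line with nonpositive second derivative has zero derivative. -/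
lemma deriv_eq_zero_of_concave_pos (h : ℝ → ℝ) (hd : Differentiable ℝ h)
    (hd' : Differentiable ℝ (deriv h)) (hc : ∀ t, deriv (deriv h) t ≤ 0)
    (hp : ∀ t, 0 < h t) (x : ℝ) : deriv h x = 0 := by
  have hanti : Antitone (deriv h) := antitone_of_deriv_nonpos hd' hc
  by_contra hne
  rcases lt_or_gt_of_ne hne with hneg | hpos
  · -- negative slope: go to the right
    set m := deriv h x with hm
    set T : ℝ := x + (h x + 1) / (-m) with hT
    have hmpos : 0 < -m := by linarith
    have hxT : x ≤ T := by
      have : 0 ≤ (h x + 1) / (-m) := div_nonneg (by linarith [hp x]) hmpos.le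
      linarith
    have key : h T - h x ≤ m * (T - x) := by
      apply Convex.image_sub_le_mul_sub_of_deriv_le (convex_Icc x T)
        (hd.continuous.continuousOn) (hd.differentiableOn.mono interior_subset)
      · intro s hs
        have hs' : s ∈ Set.Icc x T := interior_subset hs
        exact hanti hs'.1
      · exact Set.left_mem_Icc.2 hxT
      · exact Set.right_mem_Icc.2 hxT
      · exact hxT
    have hTx : T - x = (h x + 1) / (-m) := by rw [hT]; ring
    have hmul : m * (T - x) = -(h x + 1) := by
      rw [hTx]; field_simp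
    have := hp T
    linarith
  · -- positive slope: go to the left
    set m := deriv h x with hm
    have hmpos : 0 < m := hpos
    set T : ℝ := x - (h x + 1) / m with hT
    have hxT : T ≤ x := by
      have : 0 ≤ (h x + 1) / m := div_nonneg (by linarith [hp x]) hmpos.le
      linarith
    have key : m * (x - T) ≤ h x - h T := by
      apply Convex.mul_sub_le_image_sub_of_le_deriv (convex_Icc T x)
        (hd.continuous.continuousOn) (hd.differentiableOn.mono interior_subset)
      · intro s hs
        have hs' : s ∈ Set.Icc T x := interior_subset hs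
        exact hanti hs'.2
      · exact Set.left_mem_Icc.2 hxT
      · exact Set.right_mem_Icc.2 hxT
      · exact hxT
    have hTx : x - T = (h x + 1) / m := by rw [hT]; ring
    have hmul : m * (x - T) = h x + 1 := by
      rw [hTx]; field_simp
    have := hp T
    linarith

/-- If the second derivative is a constant `γ`, the function is quadratic. -/
lemma quadratic_of_second_deriv_const (f : ℝ → ℝ) (hd : Differentiable ℝ f)
    (hd' : Differentiable ℝ (deriv f)) (γ : ℝ) (h : ∀ t, deriv (deriv f) t = γ) (t : ℝ) :
    f t = γ / 2 * t ^ 2 + deriv f 0 * t + f 0 := by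
  have h1 : ∀ s, deriv f s = γ * s + deriv f 0 := by
    have hφ : Differentiable ℝ (fun s => deriv f s - γ * s) :=
      hd'.sub ((differentiable_const γ).mul differentiable_id)
    have hz : ∀ s, deriv (fun s => deriv f s - γ * s) s = 0 := by
      intro s
      have hh : HasDerivAt (fun s => deriv f s - γ * s) (deriv (deriv f) s - γ * 1) s :=
        (hd' s).hasDerivAt.sub ((hasDerivAt_id s).const_mul γ)
      rw [hh.deriv, h s]; ring
    intro s
    have := is_const_of_deriv_eq_zero hφ hz s 0
    linarith
  have hψ : Differentiable ℝ (fun s => f s - (γ / 2 * s ^ 2 + deriv f 0 * s)) := by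
    apply hd.sub
    fun_prop
  have hz : ∀ s, deriv (fun s => f s - (γ / 2 * s ^ 2 + deriv f 0 * s)) s = 0 := by
    intro s
    have hh : HasDerivAt (fun s => f s - (γ / 2 * s ^ 2 + deriv f 0 * s))
        (deriv f s - (γ / 2 * (2 * s ^ 1 * 1) + deriv f 0 * 1)) s := by
      apply (hd s).hasDerivAt.sub
      apply HasDerivAt.add
      · exact ((hasDerivAt_id s).pow 2).const_mul (γ / 2)
      · exact (hasDerivAt_id s).const_mul (deriv f 0)
    rw [hh.deriv, h1 s]; ring
  have := is_const_of_deriv_eq_zero hψ hz t 0
  nlinarith [this]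

variable {n : ℕ}

/-- The first partial derivative of a separable function. -/
lemma pd_sep (f : Fin n → ℝ → ℝ) (j : Fin n) (x : Fin n → ℝ) :
    pd j (fun y => ∑ k, f k (y k)) x = deriv (f j) (x j) := by
  unfold pd
  have : (fun t => ∑ k, f k (Function.update x j t k))
      = fun t => f j t + ∑ k ∈ univ.erase j, f k (x k) := by
    funext t
    rw [← Finset.add_sum_erase _ _ (mem_univ j)]
    simp only [Function.update_self]
    congr 1
    apply Finset.sum_congr rfl
    intro k hk
    rw [Function.update_of_ne (Finset.ne_of_mem_erase hk)]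
  rw [this, deriv_add_const]

lemma pd_sep_eq (f : Fin n → ℝ → ℝ) (j : Fin n) :
    pd j (fun y => ∑ k, f k (y k)) = fun x => deriv (f j) (x j) := by
  funext x; exact pd_sep f j x

/-- The Hessian of a separable function is diagonal. -/
lemma hess_sep (f : Fin n → ℝ → ℝ) (x : Fin n → ℝ) :
    hess (fun y => ∑ k, f k (y k)) x
      = Matrix.diagonal (fun i => deriv (deriv (f i)) (x i)) := by
  ext i j
  simp only [hess, Matrix.of_apply, pd_sep_eq, Matrix.diagonal_apply]
  unfold pd
  by_cases hij : i = j
  · subst hij
    simp only [Function.update_self, if_true]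
  · rw [if_neg hij]
    have : (fun t => deriv (f j) (Function.update x i t j)) = fun _ => deriv (f j) (x j) := by
      funext t
      rw [Function.update_of_ne (Ne.symm hij)]
    rw [this, deriv_const]

/-- The main theorem: a separable entire solution is a quadratic polynomial. -/
theorem result (n : ℕ) (hn : 2 ≤ n) (f : Fin n → ℝ → ℝ)
    (hf : ∀ i, ContDiff ℝ 4 (f i))
    (hconv : ∀ i t, 0 < deriv (deriv (f i)) t)
    (hAM : ∀ x : Fin n → ℝ, AffineMaximalAt (fun y => ∑ k, f k (y k)) x) :
    ∃ (α β : Fin n → ℝ) (γ : ℝ), (∀ i, 0 < α i) ∧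
      ∀ x : Fin n → ℝ, ∑ k, f k (x k) = ∑ k, (α k * x k ^ 2 + β k * x k) + γ := by
  classical
  have hnpos : (0 : ℝ) < (n : ℝ) + 2 := by positivity
  set e : ℝ := -(((n : ℝ) + 1) / ((n : ℝ) + 2)) with he
  set g : Fin n → ℝ → ℝ := fun i => deriv (deriv (f i)) with hg
  have hgpos : ∀ i t, 0 < g i t := hconv
  set u : (Fin n → ℝ) → ℝ := fun y => ∑ k, f k (y k) with hu
  -- smoothness
  have hgC : ∀ i, ContDiff ℝ 2 (g i) := by
    intro i
    have h4 : ContDiff ℝ ((2 : ℕ) + (2 : ℕ) : ℕ) (f i) := by
      have := hf i
      norm_num at this ⊢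
      exact this
    have := ContDiff.iterate_deriv' 2 2 h4
    simpa [hg, Function.iterate_succ] using this
  set h : Fin n → ℝ → ℝ := fun i s => g i s ^ e with hh
  have hhC : ∀ i, ContDiff ℝ 2 (h i) := fun i =>
    (hgC i).rpow_const_of_ne (fun t => (hgpos i t).ne')
  have hhD : ∀ i, Differentiable ℝ (h i) := fun i => (hhC i).differentiable (by norm_num)
  have hhD' : ∀ i, Differentiable ℝ (deriv (h i)) := by
    intro i
    have h2 : ContDiff ℝ (1 + 1) (h i) := by
      have := hhC i
      norm_num at this ⊢
      exact this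
    exact ((contDiff_succ_iff_deriv.1 h2).2.2).differentiable (by norm_num)
  have hhpos : ∀ i t, 0 < h i t := fun i t => Real.rpow_pos_of_pos (hgpos i t) e
  -- the function w along a coordinate line
  set C : Fin n → (Fin n → ℝ) → ℝ := fun i y => ∏ j ∈ univ.erase i, g j (y j) ^ e with hC
  have hw : ∀ y : Fin n → ℝ, wfun u y = ∏ j, g j (y j) ^ e := by
    intro y
    unfold wfun
    rw [hess_sep f y, Matrix.det_diagonal]
    rw [← Real.finsetProd_rpow _ _ (fun j _ => (hgpos j (y j)).le)]
  have hwline : ∀ (y : Fin n → ℝ) (i : Fin n) (t : ℝ),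
      wfun u (Function.update y i t) = h i t * C i y := by
    intro y i t
    rw [hw, ← Finset.mul_prod_erase _ _ (mem_univ i)]
    simp only [Function.update_self, hh, hC]
    congr 1
    apply Finset.prod_congr rfl
    intro j hj
    rw [Function.update_of_ne (Finset.ne_of_mem_erase hj)]
  have hCupd : ∀ (y : Fin n → ℝ) (i : Fin n) (t : ℝ), C i (Function.update y i t) = C i y := by
    intro y i t
    simp only [hC]
    apply Finset.prod_congr rfl
    intro j hj
    rw [Function.update_of_ne (Finset.ne_of_mem_erase hj)]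
  have hpd1 : ∀ (y : Fin n → ℝ) (i : Fin n),
      pd i (wfun u) y = C i y * deriv (h i) (y i) := by
    intro y i
    unfold pd
    have : (fun t => wfun u (Function.update y i t)) = fun t => C i y * h i t := by
      funext t; rw [hwline]; ring
    rw [this, deriv_const_mul _ ((hhD i) (y i))]
  have hpd2 : ∀ (x : Fin n → ℝ) (i : Fin n),
      pd i (pd i (wfun u)) x = C i x * deriv (deriv (h i)) (x i) := by
    intro x i
    unfold pd
    have : (fun t => deriv (fun t' => wfun u (Function.update (Function.update x i t) i t'))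
        (Function.update x i t i)) = fun t => C i x * deriv (h i) t := by
      funext t
      have := hpd1 (Function.update x i t) i
      unfold pd at this
      rw [this, hCupd]
      simp only [Function.update_self]
    rw [this, deriv_const_mul _ ((hhD' i) (x i))]
  -- the equation in separated form
  set ψ : Fin n → ℝ → ℝ := fun i t => (g i t ^ (1 + e))⁻¹ * deriv (deriv (h i)) t with hψ
  have hG : ∀ x : Fin n → ℝ, 0 < ∏ j, g j (x j) ^ (1 + e) := fun x =>
    Finset.prod_pos (fun j _ => Real.rpow_pos_of_pos (hgpos j (x j)) _)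
  have hsep : ∀ x : Fin n → ℝ, ∑ i, ψ i (x i) = 0 := by
    intro x
    have hx := hAM x
    unfold AffineMaximalAt at hx
    have hH := hess_sep f x
    rw [show hess (fun y => ∑ k, f k (y k)) x = hess u x from rfl] at hH
    rw [hH, Matrix.adjugate_diagonal] at hx
    have h2 : ∑ i, ∑ j, (Matrix.diagonal fun i => ∏ j ∈ univ.erase i, deriv (deriv (f j)) (x j)) i j
          * pd i (pd j (wfun u)) x
        = ∑ i, (∏ j ∈ univ.erase i, g j (x j)) * (C i x * deriv (deriv (h i)) (x i)) := by
      apply Finset.sum_congr rfl
      intro i _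
      rw [Finset.sum_eq_single i]
      · rw [Matrix.diagonal_apply_eq, hpd2]
      · intro j _ hji
        rw [Matrix.diagonal_apply_ne _ (Ne.symm hji), zero_mul]
      · intro hi; exact absurd (mem_univ i) hi
    rw [h2] at hx
    have h3 : ∀ i, (∏ j ∈ univ.erase i, g j (x j)) * (C i x * deriv (deriv (h i)) (x i))
        = (∏ j, g j (x j) ^ (1 + e)) * ψ i (x i) := by
      intro i
      have hsplit : ∏ j, g j (x j) ^ (1 + e)
          = g i (x i) ^ (1 + e) * ∏ j ∈ univ.erase i, g j (x j) ^ (1 + e) :=
        (Finset.mul_prod_erase _ _ (mem_univ i)).symm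
      have hprod : (∏ j ∈ univ.erase i, g j (x j)) * C i x
          = ∏ j ∈ univ.erase i, g j (x j) ^ (1 + e) := by
        simp only [hC]
        rw [← Finset.prod_mul_distrib]
        apply Finset.prod_congr rfl
        intro j _
        rw [Real.rpow_add (hgpos j (x j)), Real.rpow_one]
      have hne : g i (x i) ^ (1 + e) ≠ 0 := (Real.rpow_pos_of_pos (hgpos i (x i)) _).ne'
      rw [hsplit]
      simp only [hψ]
      rw [← mul_assoc, hprod]
      field_simp
    rw [Finset.sum_congr rfl (fun i _ => h3 i), ← Finset.mul_sum] at hx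
    exact (mul_eq_zero.1 hx).resolve_left (hG x).ne'
  -- each term is constant
  set c : Fin n → ℝ := fun i => ψ i 0 with hc
  have hψconst : ∀ i t, ψ i t = c i := by
    intro i t
    have h1 := hsep (Function.update (fun _ => (0 : ℝ)) i t)
    have h2 := hsep (fun _ => (0 : ℝ))
    rw [← Finset.add_sum_erase _ _ (mem_univ i)] at h1 h2
    simp only [Function.update_self] at h1
    have h3 : ∑ k ∈ univ.erase i, ψ k (Function.update (fun _ => (0 : ℝ)) i t k)
        = ∑ k ∈ univ.erase i, ψ k 0 := by
      apply Finset.sum_congr rfl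
      intro k hk
      rw [Function.update_of_ne (Finset.ne_of_mem_erase hk)]
    rw [h3] at h1
    simp only [hc]
    linarith
  have hsum : ∑ i, c i = 0 := hsep (fun _ => 0)
  have hh2 : ∀ i t, deriv (deriv (h i)) t = c i * g i t ^ (1 + e) := by
    intro i t
    have := hψconst i t
    simp only [hψ] at this
    have hne : g i t ^ (1 + e) ≠ 0 := (Real.rpow_pos_of_pos (hgpos i t) _).ne'
    rw [← this]
    field_simp
  -- no constant is negative
  have hcnn : ∀ i, 0 ≤ c i := by
    intro i
    by_contra hneg
    push Not at hneg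
    have hle : ∀ t, deriv (deriv (h i)) t ≤ 0 := by
      intro t
      rw [hh2]
      exact mul_nonpos_of_nonpos_of_nonneg hneg.le (Real.rpow_pos_of_pos (hgpos i t) _).le
    have hz := deriv_eq_zero_of_concave_pos (h i) (hhD i) (hhD' i) hle (hhpos i)
    have h0 : deriv (h i) = fun _ => 0 := funext hz
    have h00 : deriv (deriv (h i)) 0 = 0 := by rw [h0]; simp
    rw [hh2] at h00
    have hpos0 := Real.rpow_pos_of_pos (hgpos i 0) (1 + e)
    have := mul_neg_of_neg_of_pos hneg hpos0
    linarith
  have hczero : ∀ i, c i = 0 := by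
    intro i
    have := (Finset.sum_eq_zero_iff_of_nonneg (fun j _ => hcnn j)).1 hsum i (mem_univ i)
    exact this
  -- so every h i is constant, hence so is every g i
  have hhconst : ∀ i t, h i t = h i 0 := by
    intro i t
    have hle : ∀ t, deriv (deriv (h i)) t ≤ 0 := by
      intro t; rw [hh2, hczero i, zero_mul]
    have hz := deriv_eq_zero_of_concave_pos (h i) (hhD i) (hhD' i) hle (hhpos i)
    exact is_const_of_deriv_eq_zero (hhD i) hz t 0
  have henz : e ≠ 0 := by
    have : 0 < ((n : ℝ) + 1) / ((n : ℝ) + 2) := by positivity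
    intro h0
    rw [he] at h0
    linarith
  have hgconst : ∀ i t, g i t = g i 0 := by
    intro i t
    have h1 := hhconst i t
    simp only [hh] at h1
    have h2 : (g i t ^ e) ^ (e⁻¹) = (g i 0 ^ e) ^ (e⁻¹) := by rw [h1]
    rwa [Real.rpow_rpow_inv (hgpos i t).le henz, Real.rpow_rpow_inv (hgpos i 0).le henz] at h2
  -- integrate twice
  have hfD : ∀ i, Differentiable ℝ (f i) := fun i => (hf i).differentiable (by norm_num)
  have hfD' : ∀ i, Differentiable ℝ (deriv (f i)) := by
    intro i
    have h4 : ContDiff ℝ (3 + 1) (f i) := by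
      have := hf i
      norm_num at this ⊢
      exact this
    exact ((contDiff_succ_iff_deriv.1 h4).2.2).differentiable (by norm_num)
  refine ⟨fun i => g i 0 / 2, fun i => deriv (f i) 0, ∑ i, f i 0, ?_, ?_⟩
  · intro i
    have := hgpos i 0
    positivity
  · intro x
    rw [← Finset.sum_add_distrib]
    apply Finset.sum_congr rfl
    intro i _
    exact quadratic_of_second_deriv_const (f i) (hfD i) (hfD' i) (g i 0) (hgconst i) (x i)

end

end Vale.Agent.Results.P252.SeparableRigidity
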